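import Mathlib
import Vale.Agent.Helper16.KTV.Defs

/-!
Definitions for the bipartite switch chain on the binary tables with prescribed row and
column sums (the setting of Kannan, Tetali and Vempala).  This file holds the definitions
only; the proofs are in `Vale.Agent.Helper13.KTV.BipartiteChain`.
-/

namespace Vale.Agent.Helper13.Bip

open Finset KTV

variable {α β : Type} [Fintype α] [DecidableEq α] [Fintype β] [DecidableEq β]

/-- the binary tables with row sums `ρ` and column sums `c`, as a type -/
abbrev TabClass (ρ : α → ℕ) (c : β → ℕ) : Type := {x : Tab α β // x ∈ Omega ρ c}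

/-- the pattern test: ones at the cells a j and b k, zeros at the cells a k and b j -/
def Pattern (x : Tab α β) (a b : α) (j k : β) : Prop :=
  x a j = true ∧ x b k = true ∧ x a k = false ∧ x b j = false

instance (x : Tab α β) (a b : α) (j k : β) : Decidable (Pattern x a b j k) := by
  unfold Pattern; infer_instance

/-- one move of the bipartite switch chain: for the rows `e 0 ≠ e 1` and the columns
`f 0 ≠ f 1`, if the 2 x 2 subtable is one of the two permutation patterns, flip its four
entries (which replaces it by the other permutation pattern); otherwise stay put -/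
def moveB (x : Tab α β) (e : Fin 2 ↪ α) (f : Fin 2 ↪ β) : Tab α β :=
  if Pattern x (e 0) (e 1) (f 0) (f 1) ∨ Pattern x (e 0) (e 1) (f 1) (f 0) then
    fun a j => if (a = e 0 ∨ a = e 1) ∧ (j = f 0 ∨ j = f 1) then !(x a j) else x a j
  else x

/-- the transition matrix of the lazy bipartite switch chain on the tables with margins
`ρ`, `c`: with probability `1/2` stay put, otherwise pick uniformly an ordered pair of distinct
rows and an ordered pair of distinct columns and make the corresponding move -/
noncomputable def chainB (ρ : α → ℕ) (c : β → ℕ) : Matrix (TabClass ρ c) (TabClass ρ c) ℝ :=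
  fun x y => (1 / 2 : ℝ) * (if x = y then 1 else 0)
    + (1 / 2 : ℝ) * ((Finset.univ.filter fun p : (Fin 2 ↪ α) × (Fin 2 ↪ β) =>
        moveB x.1 p.1 p.2 = y.1).card : ℝ)
      / (Fintype.card ((Fin 2 ↪ α) × (Fin 2 ↪ β)) : ℝ)

/-- the mixing time of the bipartite switch chain: least `t` such that from every start the
`t`-step law is within total variation distance `1/4` of the uniform law -/
noncomputable def tmixB (ρ : α → ℕ) (c : β → ℕ) : ℕ :=
  sInf {t : ℕ | ∀ x : TabClass ρ c,
    (1 / 2 : ℝ) * ∑ y : TabClass ρ c,
      |(chainB ρ c ^ t) x y - 1 / (Fintype.card (TabClass ρ c) : ℝ)| ≤ 1 / 4}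

end Vale.Agent.Helper13.Bip
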