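import Mathlib
import Vale.Agent.Helper13.Mixing
import Vale.Agent.Helper16.KTV.Defs
import Vale.Agent.Helper13.KTV.BipartiteDefs
import Vale.Agent.Helper23.KTV.Ryser

namespace Vale.Agent.Helper13.Bip

open Finset KTV

variable {α β : Type} [Fintype α] [DecidableEq α] [Fintype β] [DecidableEq β]

lemma emb2_ne {γ : Type} (e : Fin 2 ↪ γ) : e 0 ≠ e 1 :=
  fun h => absurd (e.injective h) (by decide)

/-- the table obtained from `x` by writing the switched pattern into rows `a, b` and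
columns `j, k` -/
def doSw (a b : α) (j k : β) (x : Tab α β) : Tab α β := fun r s =>
  if (r = a ∧ s = j) ∨ (r = b ∧ s = k) then false
  else if (r = a ∧ s = k) ∨ (r = b ∧ s = j) then true
  else x r s

lemma switchAt_doSw {a b : α} {j k : β} {x : Tab α β} (hab : a ≠ b) (hjk : j ≠ k)
    (h1 : x a j = true) (h2 : x b k = true) (h3 : x a k = false) (h4 : x b j = false) :
    SwitchAt a b j k x (doSw a b j k x) := by
  have hba : b ≠ a := hab.symm
  have hkj : k ≠ j := hjk.symm
  refine ⟨hab, hjk, h1, h2, h3, h4, ?_, ?_, ?_, ?_, ?_⟩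
  · simp [doSw]
  · simp [doSw]
  · simp [doSw, hab, hkj]
  · simp [doSw, hba, hjk]
  · intro r s hrs
    unfold doSw
    rw [if_neg (by tauto), if_neg (by tauto)]

lemma switchAt_rev {a b : α} {j k : β} {x y : Tab α β} (h : SwitchAt a b j k x y) :
    SwitchAt a b k j y x := by
  obtain ⟨hab, hjk, h1, h2, h3, h4, h5, h6, h7, h8, h9⟩ := h
  refine ⟨hab, hjk.symm, h7, h8, h5, h6, h3, h4, h1, h2, ?_⟩
  intro r s hrs
  exact (h9 r s (by tauto)).symm

/-- the move in terms of `doSw` -/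
lemma moveB_eq (x : Tab α β) (e : Fin 2 ↪ α) (f : Fin 2 ↪ β) :
    moveB x e f = if Pattern x (e 0) (e 1) (f 0) (f 1) then doSw (e 0) (e 1) (f 0) (f 1) x
      else if Pattern x (e 0) (e 1) (f 1) (f 0) then doSw (e 0) (e 1) (f 1) (f 0) x
      else x := by
  have he : e 0 ≠ e 1 := emb2_ne e
  have hf : f 0 ≠ f 1 := emb2_ne f
  unfold moveB
  by_cases h1 : Pattern x (e 0) (e 1) (f 0) (f 1)
  · rw [if_pos (Or.inl h1), if_pos h1]
    obtain ⟨p1, p2, p3, p4⟩ := h1
    funext a j
    unfold doSw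
    by_cases ha0 : a = e 0
    · subst ha0
      by_cases hj0 : j = f 0
      · subst hj0
        simp [p1]
      · by_cases hj1 : j = f 1
        · subst hj1
          simp [p3, he, hf.symm]
        · simp [hj0, hj1]
    · by_cases ha1 : a = e 1
      · subst ha1
        by_cases hj0 : j = f 0
        · subst hj0
          simp [p4, he.symm, hf]
        · by_cases hj1 : j = f 1
          · subst hj1
            simp [p2]
          · simp [hj0, hj1]
      · simp [ha0, ha1]
  · rw [if_neg h1]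
    by_cases h2 : Pattern x (e 0) (e 1) (f 1) (f 0)
    · rw [if_pos (Or.inr h2), if_pos h2]
      obtain ⟨p1, p2, p3, p4⟩ := h2
      funext a j
      unfold doSw
      by_cases ha0 : a = e 0
      · subst ha0
        by_cases hj0 : j = f 0
        · subst hj0
          simp [p3, he, hf]
        · by_cases hj1 : j = f 1
          · subst hj1
            simp [p1]
          · simp [hj0, hj1]
      · by_cases ha1 : a = e 1
        · subst ha1
          by_cases hj0 : j = f 0
          · subst hj0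
            simp [p2]
          · by_cases hj1 : j = f 1
            · subst hj1
              simp [p4, he.symm, hf.symm]
            · simp [hj0, hj1]
        · simp [ha0, ha1]
    · rw [if_neg h2, if_neg (by tauto)]

lemma switchAt_of_pattern {x : Tab α β} {a b : α} {j k : β} (hab : a ≠ b) (hjk : j ≠ k)
    (h : Pattern x a b j k) : SwitchAt a b j k x (doSw a b j k x) :=
  switchAt_doSw hab hjk h.1 h.2.1 h.2.2.1 h.2.2.2

/-- the target of a switch at given rows and columns is unique -/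
lemma switchAt_unique {x y y' : Tab α β} {a b : α} {j k : β} (h : SwitchAt a b j k x y)
    (h' : SwitchAt a b j k x y') : y = y' := by
  obtain ⟨-, -, -, -, -, -, h5, h6, h7, h8, h9⟩ := h
  obtain ⟨-, -, -, -, -, -, h5', h6', h7', h8', h9'⟩ := h'
  funext r s
  by_cases hrs : (r = a ∨ r = b) ∧ (s = j ∨ s = k)
  · obtain ⟨hr, hs⟩ := hrs
    rcases hr with rfl | rfl <;> rcases hs with rfl | rfl
    · rw [h5, h5']
    · rw [h7, h7']
    · rw [h8, h8']
    · rw [h6, h6']
  · rw [h9 r s hrs, h9' r s hrs]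

lemma moveB_mem {ρ : α → ℕ} {c : β → ℕ} {x : Tab α β} (hx : x ∈ Omega ρ c)
    (e : Fin 2 ↪ α) (f : Fin 2 ↪ β) : moveB x e f ∈ Omega ρ c := by
  rw [moveB_eq]
  split_ifs with h1 h2
  · exact IsSwitch.mem_Omega ⟨_, _, _, _, switchAt_of_pattern (emb2_ne e) (emb2_ne f) h1⟩ hx
  · exact IsSwitch.mem_Omega
      ⟨_, _, _, _, switchAt_of_pattern (emb2_ne e) (emb2_ne f).symm h2⟩ hx
  · exact hx

/-- a move that changes the table is a switch -/
lemma moveB_switch {x y : Tab α β} (hne : x ≠ y) (e : Fin 2 ↪ α) (f : Fin 2 ↪ β)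
    (h : moveB x e f = y) :
    SwitchAt (e 0) (e 1) (f 0) (f 1) x y ∨ SwitchAt (e 0) (e 1) (f 1) (f 0) x y := by
  rw [moveB_eq] at h
  split_ifs at h with h1 h2
  · left; rw [← h]; exact switchAt_of_pattern (emb2_ne e) (emb2_ne f) h1
  · right; rw [← h]; exact switchAt_of_pattern (emb2_ne e) (emb2_ne f).symm h2
  · exact absurd h hne

lemma moveB_of_switchAt {x y : Tab α β} (e : Fin 2 ↪ α) (f : Fin 2 ↪ β)
    (h : SwitchAt (e 0) (e 1) (f 0) (f 1) x y) : moveB x e f = y := by
  have hp : Pattern x (e 0) (e 1) (f 0) (f 1) := ⟨h.2.2.1, h.2.2.2.1, h.2.2.2.2.1, h.2.2.2.2.2.1⟩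
  rw [moveB_eq, if_pos hp]
  exact switchAt_unique (switchAt_of_pattern (emb2_ne e) (emb2_ne f) hp) h

lemma moveB_of_switchAt' {x y : Tab α β} (e : Fin 2 ↪ α) (f : Fin 2 ↪ β)
    (h : SwitchAt (e 0) (e 1) (f 1) (f 0) x y) : moveB x e f = y := by
  have hp : Pattern x (e 0) (e 1) (f 1) (f 0) := ⟨h.2.2.1, h.2.2.2.1, h.2.2.2.2.1, h.2.2.2.2.2.1⟩
  have hnp : ¬ Pattern x (e 0) (e 1) (f 0) (f 1) := by
    intro hq
    have h1 := hq.1
    have h2 := hp.2.2.1
    rw [h1] at h2
    exact absurd h2 (by decide)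
  rw [moveB_eq, if_neg hnp, if_pos hp]
  exact switchAt_unique (switchAt_of_pattern (emb2_ne e) (emb2_ne f).symm hp) h

/-- the same move undoes a switch -/
lemma moveB_back {x y : Tab α β} (hne : x ≠ y) (e : Fin 2 ↪ α) (f : Fin 2 ↪ β)
    (h : moveB x e f = y) : moveB y e f = x := by
  rcases moveB_switch hne e f h with hs | hs
  · exact moveB_of_switchAt' e f (switchAt_rev hs)
  · exact moveB_of_switchAt e f (switchAt_rev hs)

section chain

variable {ρ : α → ℕ} {c : β → ℕ}

lemma card_moves (α β : Type) [Fintype α] [Fintype β] :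
    (Fintype.card ((Fin 2 ↪ α) × (Fin 2 ↪ β)) : ℝ)
      = 4 * ((Fintype.card α).choose 2 : ℝ) * ((Fintype.card β).choose 2 : ℝ) := by
  rw [Fintype.card_prod, Fintype.card_embedding_eq, Fintype.card_embedding_eq]
  simp only [Fintype.card_fin]
  rw [Nat.descFactorial_eq_factorial_mul_choose, Nat.descFactorial_eq_factorial_mul_choose]
  push_cast
  norm_num [Nat.factorial]
  ring

lemma card_moves_pos (hα : 2 ≤ Fintype.card α) (hβ : 2 ≤ Fintype.card β) :
    (0 : ℝ) < (Fintype.card ((Fin 2 ↪ α) × (Fin 2 ↪ β)) : ℝ) := by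
  rw [card_moves]
  have h1 : (0:ℝ) < ((Fintype.card α).choose 2 : ℝ) := by
    have : 0 < (Fintype.card α).choose 2 := Nat.choose_pos hα
    exact_mod_cast this
  have h2 : (0:ℝ) < ((Fintype.card β).choose 2 : ℝ) := by
    have : 0 < (Fintype.card β).choose 2 := Nat.choose_pos hβ
    exact_mod_cast this
  positivity

lemma chainB_nonneg (x y : TabClass ρ c) : 0 ≤ chainB ρ c x y := by
  unfold chainB
  have h1 : (0:ℝ) ≤ (if x = y then 1 else 0) := by split_ifs <;> norm_num
  positivity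

lemma chainB_lazy (x : TabClass ρ c) : 1 / 2 ≤ chainB ρ c x x := by
  unfold chainB
  rw [if_pos rfl]
  have : (0:ℝ) ≤ (1 / 2 : ℝ) * ((Finset.univ.filter fun p : (Fin 2 ↪ α) × (Fin 2 ↪ β) =>
      moveB x.1 p.1 p.2 = x.1).card : ℝ) / (Fintype.card ((Fin 2 ↪ α) × (Fin 2 ↪ β)) : ℝ) := by
    positivity
  linarith

lemma chainB_row (hα : 2 ≤ Fintype.card α) (hβ : 2 ≤ Fintype.card β) (x : TabClass ρ c) :
    ∑ y, chainB ρ c x y = 1 := by
  unfold chainB
  rw [Finset.sum_add_distrib, ← Finset.mul_sum, Finset.sum_ite_eq, if_pos (Finset.mem_univ _),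
    ← Finset.sum_div, ← Finset.mul_sum, ← Nat.cast_sum]
  have hfib : ∑ y : TabClass ρ c, (Finset.univ.filter fun p : (Fin 2 ↪ α) × (Fin 2 ↪ β) =>
      moveB x.1 p.1 p.2 = y.1).card = Fintype.card ((Fin 2 ↪ α) × (Fin 2 ↪ β)) := by
    have h := Finset.card_eq_sum_card_fiberwise
      (f := fun p : (Fin 2 ↪ α) × (Fin 2 ↪ β) =>
        (⟨moveB x.1 p.1 p.2, moveB_mem x.2 p.1 p.2⟩ : TabClass ρ c))
      (s := Finset.univ) (t := Finset.univ) (fun _ _ => Finset.mem_coe.mpr (Finset.mem_univ _))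
    rw [Finset.card_univ] at h
    rw [h]
    refine Finset.sum_congr rfl fun y _ => ?_
    congr 1
    ext p
    simp only [Finset.mem_filter, Finset.mem_univ, true_and]
    rw [Subtype.ext_iff]
  rw [hfib]
  have := card_moves_pos (α := α) (β := β) hα hβ
  field_simp
  ring

lemma chainB_symm (x y : TabClass ρ c) : chainB ρ c x y = chainB ρ c y x := by
  by_cases h : x = y
  · subst h; rfl
  · unfold chainB
    have hne : x.1 ≠ y.1 := fun hh => h (Subtype.ext hh)
    rw [if_neg h, if_neg (Ne.symm h)]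
    have hset : (Finset.univ.filter fun p : (Fin 2 ↪ α) × (Fin 2 ↪ β) =>
        moveB x.1 p.1 p.2 = y.1)
        = (Finset.univ.filter fun p : (Fin 2 ↪ α) × (Fin 2 ↪ β) => moveB y.1 p.1 p.2 = x.1) := by
      ext p
      simp only [Finset.mem_filter, Finset.mem_univ, true_and]
      exact ⟨fun hp => moveB_back hne p.1 p.2 hp, fun hp => moveB_back (Ne.symm hne) p.1 p.2 hp⟩
    rw [hset]


/-- the ordered pair `a ≠ b` as an embedding -/
def emb2 {γ : Type} (a b : γ) (h : a ≠ b) : Fin 2 ↪ γ :=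
  ⟨![a, b], by
    intro i j hij
    fin_cases i <;> fin_cases j <;> simp_all [Matrix.cons_val_zero, Matrix.cons_val_one]⟩

lemma switchAt_swap {x y : Tab α β} {a b : α} {j k : β} (h : SwitchAt a b j k x y) :
    SwitchAt b a k j x y := by
  obtain ⟨hab, hjk, h1, h2, h3, h4, h5, h6, h7, h8, h9⟩ := h
  refine ⟨hab.symm, hjk.symm, h2, h1, h4, h3, h6, h5, h8, h7, ?_⟩
  intro r s hrs
  exact h9 r s (by tauto)

/-- a switch neighbour is reached by at least four moves -/
lemma four_movesB {x y : Tab α β} (h : IsSwitch x y) :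
    4 ≤ (Finset.univ.filter fun p : (Fin 2 ↪ α) × (Fin 2 ↪ β) =>
      moveB x p.1 p.2 = y).card := by
  obtain ⟨a, b, j, k, hsw⟩ := h
  have hab : a ≠ b := hsw.1
  have hjk : j ≠ k := hsw.2.1
  set p1 : (Fin 2 ↪ α) × (Fin 2 ↪ β) := (emb2 a b hab, emb2 j k hjk) with hp1
  set p2 : (Fin 2 ↪ α) × (Fin 2 ↪ β) := (emb2 b a hab.symm, emb2 k j hjk.symm) with hp2
  set p3 : (Fin 2 ↪ α) × (Fin 2 ↪ β) := (emb2 a b hab, emb2 k j hjk.symm) with hp3
  set p4 : (Fin 2 ↪ α) × (Fin 2 ↪ β) := (emb2 b a hab.symm, emb2 j k hjk) with hp4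
  have hsub : ({p1, p2, p3, p4} : Finset ((Fin 2 ↪ α) × (Fin 2 ↪ β)))
      ⊆ Finset.univ.filter fun p : (Fin 2 ↪ α) × (Fin 2 ↪ β) => moveB x p.1 p.2 = y := by
    intro p hp
    simp only [Finset.mem_insert, Finset.mem_singleton] at hp
    simp only [Finset.mem_filter, Finset.mem_univ, true_and]
    rcases hp with rfl | rfl | rfl | rfl
    · exact moveB_of_switchAt (emb2 a b hab) (emb2 j k hjk) hsw
    · exact moveB_of_switchAt (emb2 b a hab.symm) (emb2 k j hjk.symm) (switchAt_swap hsw)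
    · exact moveB_of_switchAt' (emb2 a b hab) (emb2 k j hjk.symm) hsw
    · exact moveB_of_switchAt' (emb2 b a hab.symm) (emb2 j k hjk) (switchAt_swap hsw)
  have e1 : p1.1 0 = a := rfl
  have e2 : p2.1 0 = b := rfl
  have e3 : p3.1 0 = a := rfl
  have e4 : p4.1 0 = b := rfl
  have f1 : p1.2 0 = j := rfl
  have f2 : p2.2 0 = k := rfl
  have f3 : p3.2 0 = k := rfl
  have f4 : p4.2 0 = j := rfl
  have hcard : ({p1, p2, p3, p4} : Finset ((Fin 2 ↪ α) × (Fin 2 ↪ β))).card = 4 := by
    have n12 : p1 ≠ p2 := fun hh => hab (by rw [← e1, ← e2, hh])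
    have n13 : p1 ≠ p3 := fun hh => hjk (by rw [← f1, ← f3, hh])
    have n14 : p1 ≠ p4 := fun hh => hab (by rw [← e1, ← e4, hh])
    have n23 : p2 ≠ p3 := fun hh => hab (by rw [← e3, ← e2, hh])
    have n24 : p2 ≠ p4 := fun hh => hjk (by rw [← f4, ← f2, hh])
    have n34 : p3 ≠ p4 := fun hh => hab (by rw [← e3, ← e4, hh])
    rw [Finset.card_insert_of_notMem, Finset.card_insert_of_notMem,
      Finset.card_insert_of_notMem, Finset.card_singleton]
    · simpa using n34
    · simp only [Finset.mem_insert, Finset.mem_singleton, not_or]; exact ⟨n23, n24⟩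
    · simp only [Finset.mem_insert, Finset.mem_singleton, not_or]; exact ⟨n12, n13, n14⟩
  calc 4 = ({p1, p2, p3, p4} : Finset ((Fin 2 ↪ α) × (Fin 2 ↪ β))).card := hcard.symm
    _ ≤ _ := Finset.card_le_card hsub

open Classical in
/-- the Dirichlet form of the chain dominates the switch energy -/
lemma chainB_energy (hα : 2 ≤ Fintype.card α) (hβ : 2 ≤ Fintype.card β)
    (g : TabClass ρ c → ℝ) :
    (2 / (Fintype.card ((Fin 2 ↪ α) × (Fin 2 ↪ β)) : ℝ)) *
      ∑ x : TabClass ρ c, ∑ y : TabClass ρ c,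
        (if IsSwitch x.1 y.1 then (g x - g y) ^ 2 else 0)
    ≤ ∑ x : TabClass ρ c, ∑ y : TabClass ρ c, chainB ρ c x y * (g x - g y) ^ 2 := by
  have hpos := card_moves_pos (α := α) (β := β) hα hβ
  rw [Finset.mul_sum]
  refine Finset.sum_le_sum fun x _ => ?_
  rw [Finset.mul_sum]
  refine Finset.sum_le_sum fun y _ => ?_
  split_ifs with hsw
  · by_cases hxy : x = y
    · rw [hxy]; simp
    · refine mul_le_mul_of_nonneg_right ?_ (sq_nonneg _)
      unfold chainB
      rw [if_neg hxy]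
      have h4 := four_movesB hsw
      have h4' : (4:ℝ) ≤ ((Finset.univ.filter fun p : (Fin 2 ↪ α) × (Fin 2 ↪ β) =>
          moveB x.1 p.1 p.2 = y.1).card : ℝ) := by exact_mod_cast h4
      have : (2:ℝ) / (Fintype.card ((Fin 2 ↪ α) × (Fin 2 ↪ β)) : ℝ) ≤ (1 / 2 : ℝ) *
          ((Finset.univ.filter fun p : (Fin 2 ↪ α) × (Fin 2 ↪ β) =>
            moveB x.1 p.1 p.2 = y.1).card : ℝ)
            / (Fintype.card ((Fin 2 ↪ α) × (Fin 2 ↪ β)) : ℝ) := by
        rw [div_le_div_iff_of_pos_right hpos]; linarith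
      linarith
  · rw [mul_zero]
    exact mul_nonneg (chainB_nonneg x y) (sq_nonneg _)


open Classical in
/-- the table Poincare inequality, rewritten on the type of tables of the class -/
lemma gap_on_class (hT : ∀ f : Tab α β → ℝ,
      4 * sqDev (Omega ρ c) f ≤ dirichlet (Omega ρ c) IsSwitch f)
    (g : TabClass ρ c → ℝ) (hg : ∑ x, g x = 0) :
    4 * ∑ x, g x ^ 2 ≤ ∑ x : TabClass ρ c, ∑ y : TabClass ρ c,
      (if IsSwitch x.1 y.1 then (g x - g y) ^ 2 else 0) := by
  set f : Tab α β → ℝ := fun x => if h : x ∈ Omega ρ c then g ⟨x, h⟩ else 0 with hf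
  have hfg : ∀ x : TabClass ρ c, f x.1 = g x := by
    intro x
    rw [hf]
    simp only
    rw [dif_pos x.2]
  have h1 := hT f
  have hsum : ∑ y ∈ Omega ρ c, f y = 0 := by
    rw [← Finset.sum_coe_sort (Omega ρ c) f]
    simp only [hfg]
    exact hg
  have hsq : sqDev (Omega ρ c) f = ∑ x, g x ^ 2 := by
    unfold sqDev
    rw [hsum, zero_div]
    simp only [sub_zero]
    rw [← Finset.sum_coe_sort (Omega ρ c) (fun x => f x ^ 2)]
    simp only [hfg]
  have hdir : dirichlet (Omega ρ c) IsSwitch f = ∑ x : TabClass ρ c, ∑ y : TabClass ρ c,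
      (if IsSwitch x.1 y.1 then (g x - g y) ^ 2 else 0) := by
    unfold dirichlet
    simp only [Finset.sum_filter]
    rw [← Finset.sum_coe_sort (Omega ρ c)]
    refine Finset.sum_congr rfl fun x _ => ?_
    rw [← Finset.sum_coe_sort (Omega ρ c)]
    refine Finset.sum_congr rfl fun y _ => ?_
    rw [hfg, hfg]
  rw [hsq, hdir] at h1
  exact h1

lemma card_class_le (ρ : α → ℕ) (c : β → ℕ) :
    Fintype.card (TabClass ρ c) ≤ 2 ^ (Fintype.card α * Fintype.card β) := by
  have h1 : Fintype.card (TabClass ρ c) ≤ Fintype.card (Tab α β) := Fintype.card_subtype_le _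
  have h2 : Fintype.card (Tab α β) = 2 ^ (Fintype.card α * Fintype.card β) := by
    unfold Tab
    rw [Fintype.card_fun, Fintype.card_fun, Fintype.card_bool, ← pow_mul, mul_comm]
  omega

lemma log_card_class_le (hα : 2 ≤ Fintype.card α) (hβ : 2 ≤ Fintype.card β)
    (ρ : α → ℕ) (c : β → ℕ) :
    Real.log (2 * Real.sqrt (Fintype.card (TabClass ρ c)))
      ≤ (Fintype.card α : ℝ) * (Fintype.card β : ℝ) := by
  set K := Fintype.card α * Fintype.card β with hK
  have hle : (Fintype.card (TabClass ρ c) : ℝ) ≤ (2:ℝ) ^ K := by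
    exact_mod_cast card_class_le ρ c
  have hsq : Real.sqrt (Fintype.card (TabClass ρ c)) ≤ (2:ℝ) ^ K := by
    have h1 : Real.sqrt (Fintype.card (TabClass ρ c)) ≤ Real.sqrt ((2:ℝ) ^ K) :=
      Real.sqrt_le_sqrt hle
    have h2 : Real.sqrt ((2:ℝ) ^ K) ≤ (2:ℝ) ^ K := by
      rw [Real.sqrt_le_left (by positivity)]
      have : (1:ℝ) ≤ (2:ℝ) ^ K := one_le_pow₀ (by norm_num)
      nlinarith
    exact h1.trans h2
  have h3 : 2 * Real.sqrt (Fintype.card (TabClass ρ c)) ≤ (2:ℝ) ^ (K + 1) := by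
    rw [pow_succ]; linarith
  have hKc : ((K : ℕ) : ℝ) = (Fintype.card α : ℝ) * (Fintype.card β : ℝ) := by
    rw [hK]; push_cast; ring
  have hK4 : (4:ℝ) ≤ (K : ℝ) := by
    have : 4 ≤ K := by
      rw [hK]
      calc 4 = 2 * 2 := by norm_num
        _ ≤ Fintype.card α * Fintype.card β := Nat.mul_le_mul hα hβ
    exact_mod_cast this
  rw [← hKc]
  by_cases hz : 2 * Real.sqrt (Fintype.card (TabClass ρ c)) = 0
  · rw [hz, Real.log_zero]; positivity
  have hpos : 0 < 2 * Real.sqrt (Fintype.card (TabClass ρ c)) :=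
    lt_of_le_of_ne (by positivity) (Ne.symm hz)
  have h4 : Real.log (2 * Real.sqrt (Fintype.card (TabClass ρ c)))
      ≤ Real.log ((2:ℝ) ^ (K + 1)) := Real.log_le_log hpos h3
  rw [Real.log_pow] at h4
  have hl2 : Real.log 2 ≤ 0.7 := by
    have := Real.log_two_lt_d9; linarith
  have hl2' : 0 ≤ Real.log 2 := Real.log_nonneg (by norm_num)
  push_cast at h4
  nlinarith

/-- Total variation bound for the bipartite switch chain from the table Poincare inequality:
for all margins `ρ`, `c` on `m ≥ 2` rows and `n ≥ 2` columns, every `t ≥ C(m,2) C(n,2) m n`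
steps bring the chain within total variation distance `1/4` of uniform, from every start. -/
theorem tvB_le (hα : 2 ≤ Fintype.card α) (hβ : 2 ≤ Fintype.card β) (ρ : α → ℕ) (c : β → ℕ)
    (hT : ∀ f : Tab α β → ℝ, 4 * sqDev (Omega ρ c) f ≤ dirichlet (Omega ρ c) IsSwitch f)
    (t : ℕ) (ht : (Fintype.card α).choose 2 * (Fintype.card β).choose 2
      * (Fintype.card α * Fintype.card β) ≤ t) (x : TabClass ρ c) :
    (1 / 2 : ℝ) * ∑ y : TabClass ρ c,
      |(chainB ρ c ^ t) x y - 1 / (Fintype.card (TabClass ρ c) : ℝ)| ≤ 1 / 4 := by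
  have hpos := card_moves_pos (α := α) (β := β) hα hβ
  have hcard := card_moves α β
  have hc1 : (0:ℝ) < ((Fintype.card α).choose 2 : ℝ) := by
    have : 0 < (Fintype.card α).choose 2 := Nat.choose_pos hα
    exact_mod_cast this
  have hc2 : (0:ℝ) < ((Fintype.card β).choose 2 : ℝ) := by
    have : 0 < (Fintype.card β).choose 2 := Nat.choose_pos hβ
    exact_mod_cast this
  set lam : ℝ := 1 / (((Fintype.card α).choose 2 : ℝ) * ((Fintype.card β).choose 2 : ℝ)) with hlam
  have hlam0 : 0 < lam := by rw [hlam]; positivity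
  have hP : ∀ g : TabClass ρ c → ℝ, ∑ x, g x = 0 →
      2 * lam * Mixing.ssq g ≤ ∑ x, ∑ y, chainB ρ c x y * (g x - g y) ^ 2 := by
    intro g hg
    have h1 := chainB_energy (ρ := ρ) (c := c) hα hβ g
    have h2 := gap_on_class hT g hg
    have h3 : (0:ℝ) ≤ 2 / (Fintype.card ((Fin 2 ↪ α) × (Fin 2 ↪ β)) : ℝ) := by positivity
    have h4 : 2 * lam * Mixing.ssq g
        = (2 / (Fintype.card ((Fin 2 ↪ α) × (Fin 2 ↪ β)) : ℝ)) * (4 * ∑ x, g x ^ 2) := by
      rw [hcard, hlam]
      unfold Mixing.ssq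
      field_simp
    rw [h4]
    exact le_trans (mul_le_mul_of_nonneg_left h2 h3) h1
  have htv := Mixing.tv_bound (chainB ρ c) chainB_symm chainB_nonneg (chainB_row hα hβ)
    chainB_lazy lam hP t x
  refine htv.trans ?_
  have hN : (1:ℝ) ≤ (Fintype.card (TabClass ρ c) : ℝ) := by
    have : 0 < Fintype.card (TabClass ρ c) := Fintype.card_pos_iff.mpr ⟨x⟩
    exact_mod_cast this
  have hs : (0:ℝ) < Real.sqrt (Fintype.card (TabClass ρ c)) := Real.sqrt_pos.mpr (by linarith)
  have h2s : (0:ℝ) < 2 * Real.sqrt (Fintype.card (TabClass ρ c)) := by positivity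
  have hlog := log_card_class_le hα hβ ρ c
  have htR : (((Fintype.card α).choose 2 * (Fintype.card β).choose 2
      * (Fintype.card α * Fintype.card β) : ℕ) : ℝ) ≤ (t : ℝ) := by exact_mod_cast ht
  have hexp : Real.exp (-lam * (t : ℝ))
      ≤ 1 / (2 * Real.sqrt (Fintype.card (TabClass ρ c))) := by
    have e1 : 1 / (2 * Real.sqrt (Fintype.card (TabClass ρ c)))
        = Real.exp (-Real.log (2 * Real.sqrt (Fintype.card (TabClass ρ c)))) := by
      rw [Real.exp_neg, Real.exp_log h2s, one_div]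
    rw [e1]
    apply Real.exp_le_exp.mpr
    have e2 : lam * (((Fintype.card α).choose 2 * (Fintype.card β).choose 2
        * (Fintype.card α * Fintype.card β) : ℕ) : ℝ)
        = (Fintype.card α : ℝ) * (Fintype.card β : ℝ) := by
      rw [hlam]; push_cast; field_simp
    have e3 : lam * (((Fintype.card α).choose 2 * (Fintype.card β).choose 2
        * (Fintype.card α * Fintype.card β) : ℕ) : ℝ) ≤ lam * (t : ℝ) :=
      mul_le_mul_of_nonneg_left htR hlam0.le
    linarith
  have : Real.sqrt (Fintype.card (TabClass ρ c)) * Real.exp (-lam * (t : ℝ)) ≤ 1 / 2 := by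
    calc Real.sqrt (Fintype.card (TabClass ρ c)) * Real.exp (-lam * (t : ℝ))
        ≤ Real.sqrt (Fintype.card (TabClass ρ c)) *
          (1 / (2 * Real.sqrt (Fintype.card (TabClass ρ c)))) :=
          mul_le_mul_of_nonneg_left hexp hs.le
      _ = 1 / 2 := by field_simp
  linarith

/-- Mixing of the bipartite switch chain from the table Poincare inequality: for all margins
`ρ`, `c` on `m ≥ 2` rows and `n ≥ 2` columns, `tmixB ρ c ≤ C(m,2) C(n,2) m n`. -/
theorem tmixB_le (hα : 2 ≤ Fintype.card α) (hβ : 2 ≤ Fintype.card β) (ρ : α → ℕ) (c : β → ℕ)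
    (hT : ∀ f : Tab α β → ℝ, 4 * sqDev (Omega ρ c) f ≤ dirichlet (Omega ρ c) IsSwitch f) :
    tmixB ρ c ≤ (Fintype.card α).choose 2 * (Fintype.card β).choose 2
      * (Fintype.card α * Fintype.card β) :=
  Nat.sInf_le fun x => tvB_le hα hβ ρ c hT _ le_rfl x

end chain

end Vale.Agent.Helper13.Bip
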