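import Mathlib
import Vale.Agent.Helper13.SwitchChain
import Vale.Agent.Helper16.KTV.Defs

namespace Vale.Agent.Helper13.Split

open Finset
open Vale.Agent.Helper13.Switch
open Classical

variable {n : ℕ}

/-- the biadjacency table of `G` between `A` (rows) and its complement (columns) -/
noncomputable def biadj (A : Finset (Fin n)) (G : SimpleGraph (Fin n)) :
    KTV.Tab {v // v ∈ A} {v // v ∉ A} := fun a j => decide (G.Adj a.1 j.1)

lemma card_filter_subtype (p q : Fin n → Prop) [DecidablePred p]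
    [DecidablePred fun j : {v // p v} => q j.1] [DecidablePred fun v => p v ∧ q v] :
    (univ.filter fun j : {v // p v} => q j.1).card = (univ.filter fun v => p v ∧ q v).card := by
  rw [← Finset.card_map (Function.Embedding.subtype p)]
  congr 1
  ext v
  simp only [Finset.mem_map, Finset.mem_filter, Finset.mem_univ, true_and,
    Function.Embedding.coe_subtype]
  constructor
  · rintro ⟨j, hq, rfl⟩; exact ⟨j.2, hq⟩
  · rintro ⟨hp, hq⟩; exact ⟨⟨v, hp⟩, hq, rfl⟩

lemma rowSum_biadj (A : Finset (Fin n)) (G : SimpleGraph (Fin n)) (a : {v // v ∈ A}) :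
    KTV.rowSum (biadj A G) a = (univ.filter fun v => v ∉ A ∧ G.Adj a.1 v).card := by
  unfold KTV.rowSum biadj
  rw [← card_filter_subtype (fun v => v ∉ A) (fun v => G.Adj a.1 v)]
  congr 1
  ext j
  simp only [Finset.mem_filter, Finset.mem_univ, true_and, decide_eq_true_eq]

lemma colSum_biadj (A : Finset (Fin n)) (G : SimpleGraph (Fin n)) (j : {v // v ∉ A}) :
    KTV.colSum (biadj A G) j = (univ.filter fun v => v ∈ A ∧ G.Adj v j.1).card := by
  unfold KTV.colSum biadj
  rw [← card_filter_subtype (fun v => v ∈ A) (fun v => G.Adj v j.1)]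
  congr 1
  ext a
  simp only [Finset.mem_filter, Finset.mem_univ, true_and, decide_eq_true_eq]

/-- degree of a vertex of the clique side of a split graph -/
lemma degree_clique_side {A : Finset (Fin n)} {G : SimpleGraph (Fin n)} (h : SplitAlong A G)
    (a : {v // v ∈ A}) : G.degree a.1 = (A.card - 1) + KTV.rowSum (biadj A G) a := by
  rw [rowSum_biadj, ← SimpleGraph.card_neighborFinset_eq_degree]
  have hN : G.neighborFinset a.1 = A.erase a.1 ∪ univ.filter (fun v => v ∉ A ∧ G.Adj a.1 v) := by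
    ext v
    simp only [SimpleGraph.mem_neighborFinset, Finset.mem_union, Finset.mem_erase,
      Finset.mem_filter, Finset.mem_univ, true_and]
    constructor
    · intro hv
      by_cases hvA : v ∈ A
      · left; exact ⟨fun hh => G.ne_of_adj hv hh.symm, hvA⟩
      · right; exact ⟨hvA, hv⟩
    · rintro (⟨hne, hvA⟩ | ⟨-, hv⟩)
      · exact h.1 a.1 a.2 v hvA (Ne.symm hne)
      · exact hv
  rw [hN, Finset.card_union_of_disjoint, Finset.card_erase_of_mem a.2]
  rw [Finset.disjoint_left]
  intro v hv1 hv2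
  simp only [Finset.mem_erase] at hv1
  simp only [Finset.mem_filter, Finset.mem_univ, true_and] at hv2
  exact hv2.1 hv1.2

/-- degree of a vertex of the independent side of a split graph -/
lemma degree_indep_side {A : Finset (Fin n)} {G : SimpleGraph (Fin n)} (h : SplitAlong A G)
    (j : {v // v ∉ A}) : G.degree j.1 = KTV.colSum (biadj A G) j := by
  rw [colSum_biadj, ← SimpleGraph.card_neighborFinset_eq_degree]
  congr 1
  ext v
  simp only [SimpleGraph.mem_neighborFinset, Finset.mem_filter, Finset.mem_univ, true_and]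
  constructor
  · intro hv
    refine ⟨?_, hv.symm⟩
    by_contra hvA
    exact h.2 j.1 j.2 v hvA hv
  · rintro ⟨-, hv⟩; exact hv.symm

/-- adjacency in a split graph in terms of its biadjacency table -/
lemma split_adj_iff {A : Finset (Fin n)} {G : SimpleGraph (Fin n)} (h : SplitAlong A G)
    (u v : Fin n) :
    G.Adj u v ↔ (u ∈ A ∧ v ∈ A ∧ u ≠ v)
      ∨ (∃ hu : u ∈ A, ∃ hv : v ∉ A, biadj A G ⟨u, hu⟩ ⟨v, hv⟩ = true)
      ∨ (∃ hu : u ∉ A, ∃ hv : v ∈ A, biadj A G ⟨v, hv⟩ ⟨u, hu⟩ = true) := by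
  unfold biadj
  simp only [decide_eq_true_eq]
  constructor
  · intro huv
    by_cases hu : u ∈ A
    · by_cases hv : v ∈ A
      · left; exact ⟨hu, hv, G.ne_of_adj huv⟩
      · right; left; exact ⟨hu, hv, huv⟩
    · by_cases hv : v ∈ A
      · right; right; exact ⟨hu, hv, huv.symm⟩
      · exact absurd huv (h.2 u hu v hv)
  · rintro (⟨hu, hv, hne⟩ | ⟨hu, hv, huv⟩ | ⟨hu, hv, huv⟩)
    · exact h.1 u hu v hv hne
    · exact huv
    · exact huv.symm

/-- a split graph is determined by its biadjacency table -/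
lemma biadj_injective {A : Finset (Fin n)} {G G' : SimpleGraph (Fin n)} (h : SplitAlong A G)
    (h' : SplitAlong A G') (he : biadj A G = biadj A G') : G = G' := by
  ext u v
  rw [split_adj_iff h, split_adj_iff h', he]

/-- the split graph with clique `A`, independent complement and biadjacency table `x` -/
def splitGraph (A : Finset (Fin n)) (x : KTV.Tab {v // v ∈ A} {v // v ∉ A}) :
    SimpleGraph (Fin n) where
  Adj u v := (u ∈ A ∧ v ∈ A ∧ u ≠ v)
      ∨ (∃ hu : u ∈ A, ∃ hv : v ∉ A, x ⟨u, hu⟩ ⟨v, hv⟩ = true)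
      ∨ (∃ hu : u ∉ A, ∃ hv : v ∈ A, x ⟨v, hv⟩ ⟨u, hu⟩ = true)
  symm := ⟨by
    rintro u v (⟨hu, hv, hne⟩ | ⟨hu, hv, huv⟩ | ⟨hu, hv, huv⟩)
    · left; exact ⟨hv, hu, hne.symm⟩
    · right; right; exact ⟨hv, hu, huv⟩
    · right; left; exact ⟨hv, hu, huv⟩⟩
  loopless := ⟨by
    intro u hu
    rcases hu with ⟨-, -, hne⟩ | ⟨hu, hv, -⟩ | ⟨hu, hv, -⟩
    · exact hne rfl
    · exact hv hu
    · exact hu hv⟩

lemma splitGraph_split (A : Finset (Fin n)) (x : KTV.Tab {v // v ∈ A} {v // v ∉ A}) :
    SplitAlong A (splitGraph A x) := by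
  constructor
  · intro u hu v hv hne
    left; exact ⟨hu, hv, hne⟩
  · intro u hu v hv huv
    rcases huv with ⟨hu', -, -⟩ | ⟨hu', -, -⟩ | ⟨-, hv', -⟩
    · exact hu hu'
    · exact hu hu'
    · exact hv hv'

lemma biadj_splitGraph (A : Finset (Fin n)) (x : KTV.Tab {v // v ∈ A} {v // v ∉ A}) :
    biadj A (splitGraph A x) = x := by
  funext a j
  unfold biadj
  have : (splitGraph A x).Adj a.1 j.1 ↔ x a j = true := by
    constructor
    · rintro (⟨-, hj, -⟩ | ⟨hu, hv, huv⟩ | ⟨hu, -, -⟩)
      · exact absurd hj j.2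
      · exact huv
      · exact absurd a.2 hu
    · intro hx
      right; left; exact ⟨a.2, j.2, hx⟩
  by_cases hx : x a j = true
  · rw [hx]; simpa using this.mpr hx
  · have hx' : x a j = false := by simpa using hx
    rw [hx']
    simpa using fun hh => hx (this.mp hh)

/-- the biadjacency table of a split realization lies in the table class -/
lemma biadj_mem {A : Finset (Fin n)} {d : Fin n → ℕ} (G : Realization n d)
    (h : SplitAlong A G.1) :
    biadj A G.1 ∈ KTV.Omega (fun a : {v // v ∈ A} => d a.1 - (A.card - 1))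
      (fun j : {v // v ∉ A} => d j.1) := by
  unfold KTV.Omega
  rw [Finset.mem_filter]
  refine ⟨Finset.mem_univ _, fun a => ?_, fun j => ?_⟩
  · have h1 := degree_clique_side h a
    rw [G.2 a.1] at h1
    show KTV.rowSum (biadj A G.1) a = d a.1 - (A.card - 1)
    omega
  · have h1 := degree_indep_side h j
    rw [G.2 j.1] at h1
    show KTV.colSum (biadj A G.1) j = d j.1
    omega

/-- every table of the class is the biadjacency table of a realization -/
lemma exists_realization {A : Finset (Fin n)} {d : Fin n → ℕ} (G0 : Realization n d)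
    (h0 : SplitAlong A G0.1) (x : KTV.Tab {v // v ∈ A} {v // v ∉ A})
    (hx : x ∈ KTV.Omega (fun a : {v // v ∈ A} => d a.1 - (A.card - 1))
      (fun j : {v // v ∉ A} => d j.1)) :
    ∃ G : Realization n d, biadj A G.1 = x := by
  have hs := splitGraph_split A x
  unfold KTV.Omega at hx
  rw [Finset.mem_filter] at hx
  refine ⟨⟨splitGraph A x, fun i => ?_⟩, biadj_splitGraph A x⟩
  by_cases hi : i ∈ A
  · have h1 := degree_clique_side hs ⟨i, hi⟩
    rw [biadj_splitGraph] at h1
    have h2 := degree_clique_side h0 ⟨i, hi⟩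
    rw [G0.2 i] at h2
    have h3 := hx.2.1 ⟨i, hi⟩
    simp only at h1 h2 h3
    omega
  · have h1 := degree_indep_side hs ⟨i, hi⟩
    rw [biadj_splitGraph] at h1
    have h3 := hx.2.2 ⟨i, hi⟩
    simp only at h1 h3
    omega

lemma biadj_eq_true {A : Finset (Fin n)} {G : SimpleGraph (Fin n)} {a : {v // v ∈ A}}
    {j : {v // v ∉ A}} : biadj A G a j = true ↔ G.Adj a.1 j.1 := by
  unfold biadj; simp

lemma biadj_eq_false {A : Finset (Fin n)} {G : SimpleGraph (Fin n)} {a : {v // v ∈ A}}
    {j : {v // v ∉ A}} : biadj A G a j = false ↔ ¬ G.Adj a.1 j.1 := by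
  unfold biadj; simp

/-- a table switch between the biadjacency tables of two split graphs is a graph switch -/
lemma switch_transfer {A : Finset (Fin n)} {G G' : SimpleGraph (Fin n)} (h : SplitAlong A G)
    (h' : SplitAlong A G') (hs : KTV.IsSwitch (biadj A G) (biadj A G')) : IsSwitch G G' := by
  obtain ⟨a, b, j, k, hab, hjk, xaj, xbk, xak, xbj, yaj, ybk, yak, ybj, hrest⟩ := hs
  have naj : a.1 ≠ j.1 := fun hh => j.2 (hh ▸ a.2)
  have nak : a.1 ≠ k.1 := fun hh => k.2 (hh ▸ a.2)
  have nab : a.1 ≠ b.1 := fun hh => hab (Subtype.ext hh)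
  have njk : j.1 ≠ k.1 := fun hh => hjk (Subtype.ext hh)
  have njb : j.1 ≠ b.1 := fun hh => j.2 (hh ▸ b.2)
  have nkb : k.1 ≠ b.1 := fun hh => k.2 (hh ▸ b.2)
  have hA : Allowed G a.1 j.1 k.1 b.1 :=
    ⟨biadj_eq_true.mp xaj, (biadj_eq_true.mp xbk).symm, biadj_eq_false.mp xak,
      fun hh => (biadj_eq_false.mp xbj) hh.symm⟩
  refine ⟨a.1, j.1, k.1, b.1, naj, nak, nab, njk, njb, nkb, hA, ?_⟩
  have hsplit : SplitAlong A (switchGraph G a.1 j.1 k.1 b.1) := by
    constructor
    · intro u hu v hv hne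
      rw [switchGraph_adj]
      left
      refine ⟨h.1 u hu v hv hne, ?_, ?_⟩
      · rintro (⟨-, hh⟩ | ⟨hh, -⟩)
        · exact j.2 (hh ▸ hv)
        · exact j.2 (hh ▸ hu)
      · rintro (⟨hh, -⟩ | ⟨-, hh⟩)
        · exact k.2 (hh ▸ hu)
        · exact k.2 (hh ▸ hv)
    · intro u hu v hv
      rw [switchGraph_adj]
      rintro (⟨hh, -, -⟩ | ⟨hh, -⟩)
      · exact h.2 u hu v hv hh
      · rcases hh with (⟨hh, -⟩ | ⟨-, hh⟩) | (⟨-, hh⟩ | ⟨hh, -⟩)
        · exact hu (hh ▸ a.2)
        · exact hv (hh ▸ a.2)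
        · exact hv (hh ▸ b.2)
        · exact hu (hh ▸ b.2)
  apply biadj_injective h' hsplit
  funext r s
  by_cases hin : (r.1 = a.1 ∨ r.1 = b.1) ∧ (s.1 = j.1 ∨ s.1 = k.1)
  · obtain ⟨hr, hs'⟩ := hin
    rcases hr with hr | hr <;> rcases hs' with hs' | hs'
    · have hr' : r = a := Subtype.ext hr
      have hs'' : s = j := Subtype.ext hs'
      subst hr' hs''
      rw [yaj, eq_comm, biadj_eq_false, switchGraph_adj]
      rintro (⟨-, hn, -⟩ | ⟨hy, -⟩)
      · exact hn (Or.inl ⟨rfl, rfl⟩)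
      · rcases hy with (⟨-, hh⟩ | ⟨hh, -⟩) | (⟨hh, -⟩ | ⟨hh, -⟩)
        · exact njk hh
        · exact nak hh
        · exact naj hh
        · exact nab hh
    · have hr' : r = a := Subtype.ext hr
      have hs'' : s = k := Subtype.ext hs'
      subst hr' hs''
      rw [yak, eq_comm, biadj_eq_true, switchGraph_adj]
      right; exact ⟨Or.inl (Or.inl ⟨rfl, rfl⟩), nak⟩
    · have hr' : r = b := Subtype.ext hr
      have hs'' : s = j := Subtype.ext hs'
      subst hr' hs''
      rw [ybj, eq_comm, biadj_eq_true, switchGraph_adj]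
      right; exact ⟨Or.inr (Or.inr ⟨rfl, rfl⟩), fun hh => njb hh.symm⟩
    · have hr' : r = b := Subtype.ext hr
      have hs'' : s = k := Subtype.ext hs'
      subst hr' hs''
      rw [ybk, eq_comm, biadj_eq_false, switchGraph_adj]
      rintro (⟨-, -, hn⟩ | ⟨hy, -⟩)
      · exact hn (Or.inr ⟨rfl, rfl⟩)
      · rcases hy with (⟨hh, -⟩ | ⟨hh, -⟩) | (⟨hh, -⟩ | ⟨-, hh⟩)
        · exact nab hh.symm
        · exact nkb hh.symm
        · exact njb hh.symm
        · exact njk hh.symm
  · have hin' : ¬ ((r = a ∨ r = b) ∧ (s = j ∨ s = k)) := by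
      rintro ⟨hr, hs'⟩
      apply hin
      refine ⟨?_, ?_⟩
      · rcases hr with rfl | rfl
        · left; rfl
        · right; rfl
      · rcases hs' with rfl | rfl
        · left; rfl
        · right; rfl
    rw [hrest r s hin']
    have hiff : (switchGraph G a.1 j.1 k.1 b.1).Adj r.1 s.1 ↔ G.Adj r.1 s.1 := by
      rw [switchGraph_adj]
      constructor
      · rintro (⟨hh, -, -⟩ | ⟨hh, -⟩)
        · exact hh
        · exfalso
          rcases hh with (⟨h1, h2⟩ | ⟨h1, -⟩) | (⟨h1, -⟩ | ⟨h1, h2⟩)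
          · exact hin ⟨Or.inl h1, Or.inr h2⟩
          · exact k.2 (h1 ▸ r.2)
          · exact j.2 (h1 ▸ r.2)
          · exact hin ⟨Or.inr h1, Or.inl h2⟩
      · intro hh
        left
        refine ⟨hh, ?_, ?_⟩
        · rintro (⟨h1, h2⟩ | ⟨h1, -⟩)
          · exact hin ⟨Or.inl h1, Or.inl h2⟩
          · exact j.2 (h1 ▸ r.2)
        · rintro (⟨h1, -⟩ | ⟨h1, h2⟩)
          · exact k.2 (h1 ▸ r.2)
          · exact hin ⟨Or.inr h1, Or.inr h2⟩
    unfold biadj
    simp only [hiff]

/-- sums over the table class are sums over the realizations -/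
lemma sum_over_class {A : Finset (Fin n)} {d : Fin n → ℕ}
    (hsplit : ∀ G : Realization n d, SplitAlong A G.1) (G0 : Realization n d)
    (F : KTV.Tab {v // v ∈ A} {v // v ∉ A} → ℝ) :
    ∑ x ∈ KTV.Omega (fun a : {v // v ∈ A} => d a.1 - (A.card - 1))
        (fun j : {v // v ∉ A} => d j.1), F x
      = ∑ G : Realization n d, F (biadj A G.1) := by
  symm
  refine Finset.sum_bij (fun G _ => biadj A G.1) (fun G _ => biadj_mem G (hsplit G)) ?_ ?_
    (fun G _ => rfl)
  · intro G _ G' _ he
    exact Subtype.ext (biadj_injective (hsplit G) (hsplit G') he)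
  · intro x hx
    obtain ⟨G, hG⟩ := exists_realization G0 (hsplit G0) x hx
    exact ⟨G, Finset.mem_univ _, hG⟩

/-- Module F: the switch-graph spectral gap of a split degree vector, transferred from the
table class of its biadjacency tables. -/
theorem split_gap (d : Fin n → ℕ) (A : Finset (Fin n))
    (hsplit : ∀ G : Realization n d, SplitAlong A G.1)
    (hT : ∀ f : KTV.Tab {v // v ∈ A} {v // v ∉ A} → ℝ,
      4 * KTV.sqDev (KTV.Omega (fun a : {v // v ∈ A} => d a.1 - (A.card - 1))
          (fun j : {v // v ∉ A} => d j.1)) f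
        ≤ KTV.dirichlet (KTV.Omega (fun a : {v // v ∈ A} => d a.1 - (A.card - 1))
          (fun j : {v // v ∉ A} => d j.1)) KTV.IsSwitch f)
    (g : Realization n d → ℝ) (hg : ∑ G, g G = 0) :
    2 * ∑ G, g G ^ 2 ≤ (1 / 2 : ℝ) * ∑ G : Realization n d, ∑ G' : Realization n d,
      (if IsSwitch G.1 G'.1 then (g G - g G') ^ 2 else 0) := by
  by_cases hne : Nonempty (Realization n d)
  swap
  · have := not_nonempty_iff.mp hne
    simp
  obtain ⟨G0⟩ := hne
  set f : KTV.Tab {v // v ∈ A} {v // v ∉ A} → ℝ :=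
    fun x => ∑ G : Realization n d, if biadj A G.1 = x then g G else 0 with hf
  have hfφ : ∀ G : Realization n d, f (biadj A G.1) = g G := by
    intro G
    rw [hf]
    simp only
    rw [Finset.sum_eq_single G]
    · rw [if_pos rfl]
    · intro G' _ hne'
      rw [if_neg]
      intro he
      exact hne' (Subtype.ext (biadj_injective (hsplit G') (hsplit G) he))
    · intro hh; exact absurd (Finset.mem_univ G) hh
  have h1 := hT f
  have hsum : ∑ x ∈ KTV.Omega (fun a : {v // v ∈ A} => d a.1 - (A.card - 1))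
      (fun j : {v // v ∉ A} => d j.1), f x = 0 := by
    rw [sum_over_class hsplit G0 f]
    simp only [hfφ]
    exact hg
  have hsq : KTV.sqDev (KTV.Omega (fun a : {v // v ∈ A} => d a.1 - (A.card - 1))
      (fun j : {v // v ∉ A} => d j.1)) f = ∑ G, g G ^ 2 := by
    unfold KTV.sqDev
    rw [hsum, zero_div]
    simp only [sub_zero]
    rw [sum_over_class hsplit G0 (fun x => f x ^ 2)]
    simp only [hfφ]
  have hdir : KTV.dirichlet (KTV.Omega (fun a : {v // v ∈ A} => d a.1 - (A.card - 1))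
      (fun j : {v // v ∉ A} => d j.1)) KTV.IsSwitch f
      ≤ ∑ G : Realization n d, ∑ G' : Realization n d,
        (if IsSwitch G.1 G'.1 then (g G - g G') ^ 2 else 0) := by
    unfold KTV.dirichlet
    simp only [Finset.sum_filter]
    rw [sum_over_class hsplit G0]
    refine Finset.sum_le_sum fun G _ => ?_
    rw [sum_over_class hsplit G0]
    refine Finset.sum_le_sum fun G' _ => ?_
    rw [hfφ, hfφ]
    by_cases hs : KTV.IsSwitch (biadj A G.1) (biadj A G'.1)
    · rw [if_pos hs, if_pos (switch_transfer (hsplit G) (hsplit G') hs)]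
    · rw [if_neg hs]
      split_ifs
      · exact sq_nonneg _
      · exact le_refl _
  rw [hsq] at h1
  linarith

/-- Module F: polynomial mixing of the switch chain for split degree vectors, from the
table theorem. -/
theorem split_tmix (hn : 4 ≤ n) (d : Fin n → ℕ) (A : Finset (Fin n))
    (hsplit : ∀ G : Realization n d, SplitAlong A G.1)
    (hT : ∀ f : KTV.Tab {v // v ∈ A} {v // v ∉ A} → ℝ,
      4 * KTV.sqDev (KTV.Omega (fun a : {v // v ∈ A} => d a.1 - (A.card - 1))
          (fun j : {v // v ∉ A} => d j.1)) f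
        ≤ KTV.dirichlet (KTV.Omega (fun a : {v // v ∈ A} => d a.1 - (A.card - 1))
          (fun j : {v // v ∉ A} => d j.1)) KTV.IsSwitch f) :
    tmix n d ≤ 6 * n.choose 4 * n ^ 2 := by
  have h := tmix_poly_of_gap hn d 2 (by norm_num) (split_gap d A hsplit hT)
  refine h.trans ?_
  rw [Nat.ceil_le]
  push_cast
  have : (12 : ℝ) * (n.choose 4 : ℝ) * (n : ℝ) ^ 2 / 2 = 6 * (n.choose 4 : ℝ) * (n : ℝ) ^ 2 := by
    ring
  rw [this]

/-- Module F, total variation form: for split degree vectors, every `t ≥ 6 * C(n,4) * n ^ 2`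
steps of the switch chain bring it within total variation distance `1/4` of uniform, from
every start. -/
theorem split_tv (hn : 4 ≤ n) (d : Fin n → ℕ) (A : Finset (Fin n))
    (hsplit : ∀ G : Realization n d, SplitAlong A G.1)
    (hT : ∀ f : KTV.Tab {v // v ∈ A} {v // v ∉ A} → ℝ,
      4 * KTV.sqDev (KTV.Omega (fun a : {v // v ∈ A} => d a.1 - (A.card - 1))
          (fun j : {v // v ∉ A} => d j.1)) f
        ≤ KTV.dirichlet (KTV.Omega (fun a : {v // v ∈ A} => d a.1 - (A.card - 1))
          (fun j : {v // v ∉ A} => d j.1)) KTV.IsSwitch f)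
    (t : ℕ) (ht : 6 * n.choose 4 * n ^ 2 ≤ t) (G : Realization n d) :
    (1 / 2 : ℝ) * ∑ G' : Realization n d,
      |(switchChain n d ^ t) G G' - 1 / (Fintype.card (Realization n d) : ℝ)| ≤ 1 / 4 := by
  apply tv_poly_of_gap hn d 2 (by norm_num) (split_gap d A hsplit hT)
  have h1 : ((6 * n.choose 4 * n ^ 2 : ℕ) : ℝ) ≤ (t : ℝ) := by exact_mod_cast ht
  push_cast at h1
  linarith

end Vale.Agent.Helper13.Split
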