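import Mathlib
import Vale.Agent.Helper13.KTV.Split

namespace Vale.Agent.Helper13.Split

open Finset
open Vale.Agent.Helper13.Switch
open Classical

variable {n : ℕ}

/-- The arithmetic splitness criterion: if the degrees on `A` sum to
`|A| (|A| - 1)` plus the sum of the degrees off `A`, then every graph with these degrees
has `A` as a clique and the complement of `A` as an independent set. -/
theorem split_of_degree_sum {A : Finset (Fin n)} {d : Fin n → ℕ}
    (hd : ∑ a ∈ A, d a = A.card * (A.card - 1) + ∑ j ∈ Aᶜ, d j)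
    (G : SimpleGraph (Fin n)) (hG : ∀ i, G.degree i = d i) : SplitAlong A G := by
  -- split each degree into the part inside `A` and the part outside
  have hdeg : ∀ u, d u = (A.filter (G.Adj u)).card + (Aᶜ.filter (G.Adj u)).card := by
    intro u
    rw [← hG u, ← SimpleGraph.card_neighborFinset_eq_degree,
      ← Finset.card_filter_add_card_filter_not (s := G.neighborFinset u) (fun v => v ∈ A)]
    congr 1
    · congr 1
      ext v
      simp only [Finset.mem_filter, SimpleGraph.mem_neighborFinset]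
      tauto
    · congr 1
      ext v
      simp only [Finset.mem_filter, SimpleGraph.mem_neighborFinset, Finset.mem_compl]
      tauto
  -- double counting of the cross pairs
  have hcross : ∑ a ∈ A, (Aᶜ.filter (G.Adj a)).card = ∑ j ∈ Aᶜ, (A.filter (G.Adj j)).card := by
    simp only [Finset.card_filter]
    rw [Finset.sum_comm]
    refine Finset.sum_congr rfl fun j _ => Finset.sum_congr rfl fun a _ => ?_
    simp only [G.adj_comm a j]
  -- the inside part of a vertex of `A` is at most `|A| - 1`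
  have hsub : ∀ a ∈ A, A.filter (G.Adj a) ⊆ A.erase a := by
    intro a _ v hv
    rw [Finset.mem_filter] at hv
    rw [Finset.mem_erase]
    exact ⟨fun hh => G.ne_of_adj hv.2 hh.symm, hv.1⟩
  have hle : ∀ a ∈ A, (A.filter (G.Adj a)).card ≤ A.card - 1 := by
    intro a ha
    have := Finset.card_le_card (hsub a ha)
    rwa [Finset.card_erase_of_mem ha] at this
  have hsumle : ∑ a ∈ A, (A.filter (G.Adj a)).card ≤ ∑ _a ∈ A, (A.card - 1) :=
    Finset.sum_le_sum hle
  have hconst : ∑ _a ∈ A, (A.card - 1) = A.card * (A.card - 1) := by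
    rw [Finset.sum_const, smul_eq_mul]
  have e1 : ∑ a ∈ A, d a = ∑ a ∈ A, (A.filter (G.Adj a)).card
      + ∑ a ∈ A, (Aᶜ.filter (G.Adj a)).card := by
    rw [← Finset.sum_add_distrib]
    exact Finset.sum_congr rfl fun a _ => hdeg a
  have e2 : ∑ j ∈ Aᶜ, d j = ∑ j ∈ Aᶜ, (A.filter (G.Adj j)).card
      + ∑ j ∈ Aᶜ, (Aᶜ.filter (G.Adj j)).card := by
    rw [← Finset.sum_add_distrib]
    exact Finset.sum_congr rfl fun a _ => hdeg a
  have hzero : ∑ j ∈ Aᶜ, (Aᶜ.filter (G.Adj j)).card = 0 := by omega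
  have hfull : ∑ a ∈ A, (A.filter (G.Adj a)).card = ∑ _a ∈ A, (A.card - 1) := by omega
  constructor
  · intro u hu v hv hne
    have heq := (Finset.sum_eq_sum_iff_of_le hle).mp hfull u hu
    have hset : A.filter (G.Adj u) = A.erase u := by
      apply Finset.eq_of_subset_of_card_le (hsub u hu)
      rw [Finset.card_erase_of_mem hu, heq]
    have hv' : v ∈ A.erase u := Finset.mem_erase.mpr ⟨Ne.symm hne, hv⟩
    rw [← hset, Finset.mem_filter] at hv'
    exact hv'.2
  · intro u hu v hv huv
    have h0 := (Finset.sum_eq_zero_iff.mp hzero) u (Finset.mem_compl.mpr hu)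
    rw [Finset.card_eq_zero] at h0
    have : v ∈ Aᶜ.filter (G.Adj u) := Finset.mem_filter.mpr ⟨Finset.mem_compl.mpr hv, huv⟩
    rw [h0] at this
    exact absurd this (Finset.notMem_empty v)

/-- Conversely, the degrees of a split graph satisfy the arithmetic criterion. -/
theorem degree_sum_of_split {A : Finset (Fin n)} {d : Fin n → ℕ}
    (G : SimpleGraph (Fin n)) (hG : ∀ i, G.degree i = d i) (h : SplitAlong A G) :
    ∑ a ∈ A, d a = A.card * (A.card - 1) + ∑ j ∈ Aᶜ, d j := by
  have hdeg : ∀ u, d u = (A.filter (G.Adj u)).card + (Aᶜ.filter (G.Adj u)).card := by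
    intro u
    rw [← hG u, ← SimpleGraph.card_neighborFinset_eq_degree,
      ← Finset.card_filter_add_card_filter_not (s := G.neighborFinset u) (fun v => v ∈ A)]
    congr 1
    · congr 1
      ext v
      simp only [Finset.mem_filter, SimpleGraph.mem_neighborFinset]
      tauto
    · congr 1
      ext v
      simp only [Finset.mem_filter, SimpleGraph.mem_neighborFinset, Finset.mem_compl]
      tauto
  have hcross : ∑ a ∈ A, (Aᶜ.filter (G.Adj a)).card = ∑ j ∈ Aᶜ, (A.filter (G.Adj j)).card := by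
    simp only [Finset.card_filter]
    rw [Finset.sum_comm]
    refine Finset.sum_congr rfl fun j _ => Finset.sum_congr rfl fun a _ => ?_
    simp only [G.adj_comm a j]
  have hin : ∀ a ∈ A, (A.filter (G.Adj a)).card = A.card - 1 := by
    intro a ha
    have hset : A.filter (G.Adj a) = A.erase a := by
      ext v
      rw [Finset.mem_filter, Finset.mem_erase]
      constructor
      · rintro ⟨hv, hav⟩; exact ⟨fun hh => G.ne_of_adj hav hh.symm, hv⟩
      · rintro ⟨hne, hv⟩; exact ⟨hv, h.1 a ha v hv (Ne.symm hne)⟩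
    rw [hset, Finset.card_erase_of_mem ha]
  have hout : ∀ j ∈ Aᶜ, (Aᶜ.filter (G.Adj j)).card = 0 := by
    intro j hj
    rw [Finset.card_eq_zero, Finset.filter_eq_empty_iff]
    intro v hv
    exact h.2 j (Finset.mem_compl.mp hj) v (Finset.mem_compl.mp hv)
  have e1 : ∑ a ∈ A, d a = ∑ a ∈ A, (A.filter (G.Adj a)).card
      + ∑ a ∈ A, (Aᶜ.filter (G.Adj a)).card := by
    rw [← Finset.sum_add_distrib]
    exact Finset.sum_congr rfl fun a _ => hdeg a
  have e2 : ∑ j ∈ Aᶜ, d j = ∑ j ∈ Aᶜ, (A.filter (G.Adj j)).card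
      + ∑ j ∈ Aᶜ, (Aᶜ.filter (G.Adj j)).card := by
    rw [← Finset.sum_add_distrib]
    exact Finset.sum_congr rfl fun a _ => hdeg a
  have e3 : ∑ a ∈ A, (A.filter (G.Adj a)).card = A.card * (A.card - 1) := by
    rw [Finset.sum_congr rfl hin, Finset.sum_const, smul_eq_mul]
  have e4 : ∑ j ∈ Aᶜ, (Aᶜ.filter (G.Adj j)).card = 0 := Finset.sum_eq_zero hout
  omega

/-- If one graph with degree vector `d` is split along `A`, then all of them are. -/
theorem all_split_of_one {A : Finset (Fin n)} {d : Fin n → ℕ}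
    (G0 : SimpleGraph (Fin n)) (hG0 : ∀ i, G0.degree i = d i) (h0 : SplitAlong A G0)
    (G : Realization n d) : SplitAlong A G.1 :=
  split_of_degree_sum (degree_sum_of_split G0 hG0 h0) G.1 G.2

/-- gap for degree vectors satisfying the arithmetic splitness criterion -/
theorem split_gap_of_degree_sum (d : Fin n → ℕ) (A : Finset (Fin n))
    (hd : ∑ a ∈ A, d a = A.card * (A.card - 1) + ∑ j ∈ Aᶜ, d j)
    (hT : ∀ f : KTV.Tab {v // v ∈ A} {v // v ∉ A} → ℝ,
      4 * KTV.sqDev (KTV.Omega (fun a : {v // v ∈ A} => d a.1 - (A.card - 1))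
          (fun j : {v // v ∉ A} => d j.1)) f
        ≤ KTV.dirichlet (KTV.Omega (fun a : {v // v ∈ A} => d a.1 - (A.card - 1))
          (fun j : {v // v ∉ A} => d j.1)) KTV.IsSwitch f)
    (g : Realization n d → ℝ) (hg : ∑ G, g G = 0) :
    2 * ∑ G, g G ^ 2 ≤ (1 / 2 : ℝ) * ∑ G : Realization n d, ∑ G' : Realization n d,
      (if IsSwitch G.1 G'.1 then (g G - g G') ^ 2 else 0) :=
  split_gap d A (fun G => split_of_degree_sum hd G.1 G.2) hT g hg

/-- mixing time for degree vectors satisfying the arithmetic splitness criterion -/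
theorem split_tmix_of_degree_sum (hn : 4 ≤ n) (d : Fin n → ℕ) (A : Finset (Fin n))
    (hd : ∑ a ∈ A, d a = A.card * (A.card - 1) + ∑ j ∈ Aᶜ, d j)
    (hT : ∀ f : KTV.Tab {v // v ∈ A} {v // v ∉ A} → ℝ,
      4 * KTV.sqDev (KTV.Omega (fun a : {v // v ∈ A} => d a.1 - (A.card - 1))
          (fun j : {v // v ∉ A} => d j.1)) f
        ≤ KTV.dirichlet (KTV.Omega (fun a : {v // v ∈ A} => d a.1 - (A.card - 1))
          (fun j : {v // v ∉ A} => d j.1)) KTV.IsSwitch f) :
    tmix n d ≤ 6 * n.choose 4 * n ^ 2 :=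
  split_tmix hn d A (fun G => split_of_degree_sum hd G.1 G.2) hT

/-- mixing time for the degree vector of any split graph -/
theorem split_tmix_of_split_graph (hn : 4 ≤ n) (d : Fin n → ℕ) (A : Finset (Fin n))
    (G0 : SimpleGraph (Fin n)) (hG0 : ∀ i, G0.degree i = d i) (h0 : SplitAlong A G0)
    (hT : ∀ f : KTV.Tab {v // v ∈ A} {v // v ∉ A} → ℝ,
      4 * KTV.sqDev (KTV.Omega (fun a : {v // v ∈ A} => d a.1 - (A.card - 1))
          (fun j : {v // v ∉ A} => d j.1)) f
        ≤ KTV.dirichlet (KTV.Omega (fun a : {v // v ∈ A} => d a.1 - (A.card - 1))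
          (fun j : {v // v ∉ A} => d j.1)) KTV.IsSwitch f) :
    tmix n d ≤ 6 * n.choose 4 * n ^ 2 :=
  split_tmix hn d A (all_split_of_one G0 hG0 h0) hT

/-- total variation bound for degree vectors satisfying the arithmetic splitness criterion -/
theorem split_tv_of_degree_sum (hn : 4 ≤ n) (d : Fin n → ℕ) (A : Finset (Fin n))
    (hd : ∑ a ∈ A, d a = A.card * (A.card - 1) + ∑ j ∈ Aᶜ, d j)
    (hT : ∀ f : KTV.Tab {v // v ∈ A} {v // v ∉ A} → ℝ,
      4 * KTV.sqDev (KTV.Omega (fun a : {v // v ∈ A} => d a.1 - (A.card - 1))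
          (fun j : {v // v ∉ A} => d j.1)) f
        ≤ KTV.dirichlet (KTV.Omega (fun a : {v // v ∈ A} => d a.1 - (A.card - 1))
          (fun j : {v // v ∉ A} => d j.1)) KTV.IsSwitch f)
    (t : ℕ) (ht : 6 * n.choose 4 * n ^ 2 ≤ t) (G : Realization n d) :
    (1 / 2 : ℝ) * ∑ G' : Realization n d,
      |(switchChain n d ^ t) G G' - 1 / (Fintype.card (Realization n d) : ℝ)| ≤ 1 / 4 :=
  split_tv hn d A (fun G => split_of_degree_sum hd G.1 G.2) hT t ht G

/-- total variation bound for the degree vector of any split graph -/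
theorem split_tv_of_split_graph (hn : 4 ≤ n) (d : Fin n → ℕ) (A : Finset (Fin n))
    (G0 : SimpleGraph (Fin n)) (hG0 : ∀ i, G0.degree i = d i) (h0 : SplitAlong A G0)
    (hT : ∀ f : KTV.Tab {v // v ∈ A} {v // v ∉ A} → ℝ,
      4 * KTV.sqDev (KTV.Omega (fun a : {v // v ∈ A} => d a.1 - (A.card - 1))
          (fun j : {v // v ∉ A} => d j.1)) f
        ≤ KTV.dirichlet (KTV.Omega (fun a : {v // v ∈ A} => d a.1 - (A.card - 1))
          (fun j : {v // v ∉ A} => d j.1)) KTV.IsSwitch f)
    (t : ℕ) (ht : 6 * n.choose 4 * n ^ 2 ≤ t) (G : Realization n d) :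
    (1 / 2 : ℝ) * ∑ G' : Realization n d,
      |(switchChain n d ^ t) G G' - 1 / (Fintype.card (Realization n d) : ℝ)| ≤ 1 / 4 :=
  split_tv hn d A (all_split_of_one G0 hG0 h0) hT t ht G

end Vale.Agent.Helper13.Split
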