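import Vale.Agent.Helper13.KTV.SplitCriterion
import Vale.Agent.Helper13.KTV.BipartiteChain
import Vale.Agent.Helper16.KTV.Poincare

/-!
The unconditional statements for problem P335: the split-graph and bipartite mixing theorems
with the table Poincare inequality `KTV.switch_poincare` plugged in.
-/

namespace Vale.Agent.Helper13.Wired

open Finset
open Vale.Agent.Helper13.Switch Vale.Agent.Helper13.Split Vale.Agent.Helper13.Bip
open Classical

variable {n : ℕ}

/-- Spectral gap of the switch graph on the realizations of a degree vector `d` all of whose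
realizations are split along `A`: the Laplacian of the switch graph has second eigenvalue at
least 2. -/
theorem split_gap_all (d : Fin n → ℕ) (A : Finset (Fin n))
    (hsplit : ∀ G : Realization n d, SplitAlong A G.1)
    (g : Realization n d → ℝ) (hg : ∑ G, g G = 0) :
    2 * ∑ G, g G ^ 2 ≤ (1 / 2 : ℝ) * ∑ G : Realization n d, ∑ G' : Realization n d,
      (if Switch.IsSwitch G.1 G'.1 then (g G - g G') ^ 2 else 0) :=
  split_gap d A hsplit (fun f => KTV.switch_poincare _ _ f) g hg

/-- Spectral gap at least 2 of the switch graph for the degree vector of a split graph `G0`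
(clique on `A`, independent set off `A`). -/
theorem split_gap_of_split_graph (d : Fin n → ℕ) (A : Finset (Fin n))
    (G0 : SimpleGraph (Fin n)) (hG0 : ∀ i, G0.degree i = d i) (h0 : SplitAlong A G0)
    (g : Realization n d → ℝ) (hg : ∑ G, g G = 0) :
    2 * ∑ G, g G ^ 2 ≤ (1 / 2 : ℝ) * ∑ G : Realization n d, ∑ G' : Realization n d,
      (if Switch.IsSwitch G.1 G'.1 then (g G - g G') ^ 2 else 0) :=
  split_gap d A (all_split_of_one G0 hG0 h0) (fun f => KTV.switch_poincare _ _ f) g hg

/-- Spectral gap at least 2 under the arithmetic splitness criterion on the degree vector. -/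
theorem split_gap_of_degree_sum' (d : Fin n → ℕ) (A : Finset (Fin n))
    (hd : ∑ a ∈ A, d a = A.card * (A.card - 1) + ∑ j ∈ Aᶜ, d j)
    (g : Realization n d → ℝ) (hg : ∑ G, g G = 0) :
    2 * ∑ G, g G ^ 2 ≤ (1 / 2 : ℝ) * ∑ G : Realization n d, ∑ G' : Realization n d,
      (if Switch.IsSwitch G.1 G'.1 then (g G - g G') ^ 2 else 0) :=
  split_gap_of_degree_sum d A hd (fun f => KTV.switch_poincare _ _ f) g hg

/-- Rapid mixing of the switch chain for the degree vector of every split graph: after any
`t ≥ 6 * C(n,4) * n ^ 2` steps the chain is within total variation distance `1/4` of uniform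
from every start, and hence the mixing time is at most `6 * C(n,4) * n ^ 2`. -/
theorem split_mixing (hn : 4 ≤ n) (d : Fin n → ℕ) (A : Finset (Fin n))
    (G0 : SimpleGraph (Fin n)) (hG0 : ∀ i, G0.degree i = d i) (h0 : SplitAlong A G0) :
    (∀ t : ℕ, 6 * n.choose 4 * n ^ 2 ≤ t → ∀ G : Realization n d,
      (1 / 2 : ℝ) * ∑ G' : Realization n d,
        |(switchChain n d ^ t) G G' - 1 / (Fintype.card (Realization n d) : ℝ)| ≤ 1 / 4)
    ∧ tmix n d ≤ 6 * n.choose 4 * n ^ 2 :=
  ⟨fun t ht G => split_tv_of_split_graph hn d A G0 hG0 h0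
      (fun f => KTV.switch_poincare _ _ f) t ht G,
    split_tmix_of_split_graph hn d A G0 hG0 h0 (fun f => KTV.switch_poincare _ _ f)⟩

/-- Rapid mixing of the switch chain under the arithmetic splitness criterion. -/
theorem split_mixing_of_degree_sum (hn : 4 ≤ n) (d : Fin n → ℕ) (A : Finset (Fin n))
    (hd : ∑ a ∈ A, d a = A.card * (A.card - 1) + ∑ j ∈ Aᶜ, d j) :
    (∀ t : ℕ, 6 * n.choose 4 * n ^ 2 ≤ t → ∀ G : Realization n d,
      (1 / 2 : ℝ) * ∑ G' : Realization n d,
        |(switchChain n d ^ t) G G' - 1 / (Fintype.card (Realization n d) : ℝ)| ≤ 1 / 4)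
    ∧ tmix n d ≤ 6 * n.choose 4 * n ^ 2 :=
  ⟨fun t ht G => split_tv_of_degree_sum hn d A hd (fun f => KTV.switch_poincare _ _ f) t ht G,
    split_tmix_of_degree_sum hn d A hd (fun f => KTV.switch_poincare _ _ f)⟩

/-- Rapid mixing of the bipartite switch chain for all margins: on `m ≥ 2` rows and `n ≥ 2`
columns, after any `t ≥ C(m,2) * C(n,2) * (m * n)` steps the chain on the binary tables with
row sums `ρ` and column sums `c` is within total variation distance `1/4` of uniform from
every start, and hence its mixing time is at most `C(m,2) * C(n,2) * (m * n)`. -/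
theorem bipartite_mixing {α β : Type} [Fintype α] [DecidableEq α] [Fintype β] [DecidableEq β]
    (hα : 2 ≤ Fintype.card α) (hβ : 2 ≤ Fintype.card β) (ρ : α → ℕ) (c : β → ℕ) :
    (∀ t : ℕ, (Fintype.card α).choose 2 * (Fintype.card β).choose 2
        * (Fintype.card α * Fintype.card β) ≤ t → ∀ x : TabClass ρ c,
      (1 / 2 : ℝ) * ∑ y : TabClass ρ c,
        |(chainB ρ c ^ t) x y - 1 / (Fintype.card (TabClass ρ c) : ℝ)| ≤ 1 / 4)
    ∧ tmixB ρ c ≤ (Fintype.card α).choose 2 * (Fintype.card β).choose 2
        * (Fintype.card α * Fintype.card β) :=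
  ⟨fun t ht x => tvB_le hα hβ ρ c (fun f => KTV.switch_poincare ρ c f) t ht x,
    tmixB_le hα hβ ρ c (fun f => KTV.switch_poincare ρ c f)⟩

end Vale.Agent.Helper13.Wired
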